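import Vale.Agent.Lib.P347.Proper

/-!
# P347: query lower bound for finitely seeded query points, with a non-degenerate target

Same model as `SeededQueryLowerBound`: the query points are functions of a seed from a finite
set `S` and of the oracle answers received so far; the output is an arbitrary measure depending on
the seed and on the answers.  If `q * |S| + 4 ≤ d`, some potential `V` of the class `𝒱_d` whose
Gibbs law is a probability measure is missed by more than `1/10` in total variation after `q`
queries.
-/

namespace Vale.Agent.Results.P347.SeededLowerBoundProper

open Vale.Agent.Lib.P347 MeasureTheory

theorem result (d q : ℕ) (S : Type) [Fintype S] (A : SeededAlg d S)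
    (hq : q * Fintype.card S + 4 ≤ d) :
    ∃ V ∈ potentialClass d, IsProbabilityMeasure (gibbs V) ∧ ∃ B : Set (Sp d), MeasurableSet B ∧
      1 / 10 < |(outputLaw A V q).real B - (gibbs V).real B| :=
  seeded_lower_bound_proper d q S A hq

end Vale.Agent.Results.P347.SeededLowerBoundProper
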