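import Vale.Agent.Lib.P347.Main

/-!
# P347: a query lower bound for algorithms with finitely seeded query points

Model: the query points of the algorithm are functions of a seed `s` drawn from a finite set `S`
and of the oracle answers received so far; the output may use arbitrary further randomness (it is
a measure depending on the seed and on the answers).  If `q * |S| + 4 ≤ d`, then after `q`
first-order queries the output law is at total-variation distance more than `1/10` from the Gibbs
law of some potential of the class `𝒱_d`.  In particular (`S` a one-point type) an algorithm with
deterministic adaptive query points needs at least `d - 3` queries.
-/

namespace Vale.Agent.Results.P347.SeededQueryLowerBound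

open Vale.Agent.Lib.P347 MeasureTheory

theorem result (d q : ℕ) (S : Type) [Fintype S] (A : SeededAlg d S)
    (hq : q * Fintype.card S + 4 ≤ d) :
    ∃ V ∈ potentialClass d, ∃ B : Set (Sp d), MeasurableSet B ∧
      1 / 10 < |(outputLaw A V q).real B - (gibbs V).real B| :=
  seeded_lower_bound d q S A hq

end Vale.Agent.Results.P347.SeededQueryLowerBound
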